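import Vale.Agent.P141.Defs

/-! From boundedness to a discrete inequality. -/

open MeasureTheory Filter Topology Set
open scoped ENNReal NNReal SchwartzMap ContDiff Manifold

noncomputable section

namespace Vale.Agent.P141

theorem lint (A : Finset ℤ) (v : ℤ → ℝ≥0∞) (F : ℝ → ℝ≥0∞)
    (h : ∀ a ∈ A, ∀ y : ℝ, |y - a| < 1 / 16 → v a ≤ F y) :
    ∑ a ∈ A, v a * ENNReal.ofReal (1 / 8) ≤ ∫⁻ y, F y := by
  refine le_trans ?_ (setLIntegral_le_lintegral (⋃ a ∈ A, Metric.ball (a : ℝ) (1 / 16)) F)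
  rw [lintegral_biUnion_finset _ fun _ _ => measurableSet_ball]
  · refine Finset.sum_le_sum fun a ha => le_trans (le_of_eq ?_)
      (setLIntegral_mono' (f := fun _ => v a) measurableSet_ball fun y hy => h a ha y hy)
    rw [setLIntegral_const, Real.volume_ball]
    norm_num
  · intro a _ b _ hab
    refine Metric.ball_disjoint_ball ?_
    have : (1 : ℝ) ≤ |(a : ℝ) - b| := by exact_mod_cast Int.one_le_abs (sub_ne_zero.2 hab)
    rw [Real.dist_eq]
    linarith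

/-- A smooth bump at the points of `A`. -/
structure Bump (A : Finset ℤ) (f : ℝ → ℝ) : Prop where
  sm : ContDiff ℝ ∞ f
  cs : HasCompactSupport f
  nn : ∀ y, 0 ≤ f y
  le : ∀ y, f y ≤ 1
  one : ∀ a ∈ A, ∀ y : ℝ, |y - a| ≤ 1 / 4 → f y = 1
  sup : ∀ y, f y ≠ 0 → ∃ a ∈ A, |y - a| < 1 / 2

theorem bump (A : Finset ℤ) : ∃ f, Bump A f := by
  obtain ⟨f, h0, h1, h2⟩ := exists_contMDiffMap_zero_one_of_isClosed (n := ⊤) 𝓘(ℝ, ℝ)
    (s := (⋃ a ∈ A, Metric.ball (a : ℝ) (1 / 2))ᶜ)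
    (t := ⋃ a ∈ A, Metric.closedBall (a : ℝ) (1 / 4))
    (isOpen_biUnion fun _ _ => Metric.isOpen_ball).isClosed_compl
    (isClosed_biUnion_finset fun _ _ => Metric.isClosed_closedBall)
    (disjoint_compl_left_iff_subset.2
      (iUnion₂_mono fun _ _ => Metric.closedBall_subset_ball (by norm_num)))
  have hs : ∀ y, f y ≠ 0 → ∃ a ∈ A, |y - a| < 1 / 2 := fun y hy => by
    by_contra hc
    exact hy (h0 fun h => hc (by simpa [Real.dist_eq] using h))
  refine ⟨f, f.contMDiff.contDiff, ?_, fun y => (h2 y).1, fun y => (h2 y).2,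
    fun a ha y hy => h1 (mem_biUnion ha hy), hs⟩
  refine HasCompactSupport.intro (K := ⋃ a ∈ A, Metric.closedBall (a : ℝ) (1 / 2))
    (A.isCompact_biUnion fun _ _ => isCompact_closedBall _ _) fun y hy => by_contra fun h => ?_
  obtain ⟨a, ha, h⟩ := hs y h
  exact hy (mem_biUnion ha h.le)

variable {A : Finset ℤ} {f : ℝ → ℝ}

/-- The bump as a Schwartz function. -/
def Bump.sch (h : Bump A f) : 𝓢(ℝ, ℂ) :=
  HasCompactSupport.toSchwartzMap (f := fun y => (f y : ℂ))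
    (h.cs.comp_left (g := Complex.ofReal) rfl) (Complex.ofRealCLM.contDiff.comp h.sm)

theorem Bump.norm_le (h : Bump A f) (p : ℝ≥0∞) :
    eLpNorm h.sch p volume ≤ (A.card : ℝ≥0∞) ^ (1 / p.toReal) := by
  refine (eLpNorm_mono_real (g := (⋃ a ∈ A, Metric.ball (a : ℝ) (1 / 2)).indicator fun _ => 1)
    fun y => ?_).trans ((eLpNorm_indicator_const_le _ _).trans ?_)
  · change ‖(f y : ℂ)‖ ≤ _
    rw [Complex.norm_real, Real.norm_of_nonneg (h.nn y)]
    by_cases h0 : f y = 0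
    · exact h0.trans_le (indicator_nonneg (fun _ _ => zero_le_one) _)
    · obtain ⟨a, ha, h1⟩ := h.sup y h0
      rw [indicator_of_mem (mem_iUnion₂.2 ⟨a, ha, Metric.mem_ball.2 h1⟩)]
      exact h.le y
  · rw [enorm_one, one_mul]
    gcongr
    refine (measure_biUnion_finset_le _ _).trans_eq ?_
    simp

theorem pt {G : Finset (ℤ × ℤ)} {R : ℝ} (hR : 1 ≤ R)
    (hG : ∀ g ∈ G, |(g.1 : ℝ)| ≤ R ∧ 3 * R ≤ g.2 ∧ (g.2 : ℝ) ≤ 5 * R) {f₁ f₂ f₃ : ℝ → ℝ}
    (h₁ : Bump (G.image fun g => g.1 - g.2) f₁) (h₂ : Bump (G.image fun g => g.1 - 2 * g.2) f₂)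
    (h₃ : Bump (G.image fun g => g.1 - 3 * g.2) f₃) {x : ℤ} (hx : |(x : ℝ)| ≤ R) {y : ℝ}
    (hy : |y - x| < 1 / 16) :
    ENNReal.ofReal ((G.filter fun g => g.1 = x).card / (64 * R)) ≤
      ‖THT h₁.sch h₂.sch h₃.sch y‖ₑ := by
  set g : ℝ → ℝ := fun t => f₁ (y - t) * f₂ (y - 2 * t) * f₃ (y - 3 * t) / t with hg
  have s1 : ∀ t, f₁ (y - t) ≠ 0 → 1 / 4 ≤ t ∧ t ≤ 8 * R := fun t ht => by
    obtain ⟨_, ha, h⟩ := h₁.sup _ ht
    obtain ⟨a, hb, rfl⟩ := Finset.mem_image.1 ha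
    obtain ⟨a1, a2, a3⟩ := hG a hb
    push_cast at h
    rw [abs_le] at a1 hx
    rw [abs_lt] at h hy
    constructor <;> linarith
  have s2 : ∀ t, g t ≠ 0 → 1 / 4 ≤ t ∧ t ≤ 8 * R := fun t ht =>
    s1 t fun h => ht (by simp [hg, h])
  have g0 : ∀ t, 0 ≤ g t := fun t => by
    by_cases h : g t = 0
    · exact h.ge
    · exact div_nonneg (mul_nonneg (mul_nonneg (h₁.nn _) (h₂.nn _)) (h₃.nn _))
        (by linarith [(s2 t h).1])
  have gi : Integrable g := by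
    have c : Continuous fun t => f₁ (y - t) * f₂ (y - 2 * t) * f₃ (y - 3 * t) := by
      have := h₁.sm.continuous
      have := h₂.sm.continuous
      have := h₃.sm.continuous
      fun_prop
    refine (integrableOn_iff_integrable_of_support_subset (s := Icc (1 / 4) (8 * R)) s2).1 ?_
    exact (c.continuousOn.div continuousOn_id fun t ht =>
      (show (0 : ℝ) < t by linarith [ht.1]).ne').integrableOn_Icc
  have e : THT h₁.sch h₂.sch h₃.sch y = ((∫ t, g t : ℝ) : ℂ) := by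
    refine Tendsto.limUnder_eq (tendsto_const_nhds.congr' ?_)
    filter_upwards [prod_mem_prod (Ioo_mem_nhdsGT (show (0 : ℝ) < 1 / 4 by norm_num))
      (Ioi_mem_atTop (8 * R))] with q hq
    rw [← integral_complex_ofReal, ← setIntegral_eq_integral_of_forall_compl_eq_zero
      (s := {t : ℝ | q.1 < |t| ∧ |t| < q.2}) fun t ht => ?_]
    · simp only [hg, Complex.ofReal_div, Complex.ofReal_mul]
      rfl
    · by_contra h
      obtain ⟨a1, a2⟩ := s2 t fun h0 => h (by rw [h0, Complex.ofReal_zero])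
      rw [mem_ofPred_eq, abs_of_pos (by linarith)] at ht
      exact ht ⟨hq.1.2.trans_le a1, a2.trans_lt hq.2⟩
  rw [e, ← ofReal_norm, Complex.norm_real, Real.norm_of_nonneg (integral_nonneg g0),
    ofReal_integral_eq_lintegral_ofReal gi (.of_forall g0)]
  refine le_trans (le_of_eq ?_) (lint ((G.filter fun g => g.1 = x).image Prod.snd)
    (fun _ => ENNReal.ofReal (1 / (8 * R))) _ fun a ha t ht => ENNReal.ofReal_le_ofReal ?_)
  · rw [Finset.sum_const, Finset.card_image_of_injOn fun a ha b hb h => Prod.ext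
      ((Finset.mem_filter.1 ha).2.trans (Finset.mem_filter.1 hb).2.symm) h,
      ← ENNReal.ofReal_mul (by positivity), nsmul_eq_mul, ← ENNReal.ofReal_natCast,
      ← ENNReal.ofReal_mul (by positivity)]
    congr 1
    field_simp
    norm_num
  · obtain ⟨b, hc, rfl⟩ := Finset.mem_image.1 ha
    obtain ⟨hb, rfl⟩ := Finset.mem_filter.1 hc
    rw [abs_lt] at ht hy
    have e1 := h₁.one _ (Finset.mem_image_of_mem _ hb) (y - t)
      (by push_cast; rw [abs_le]; constructor <;> linarith)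
    have e2 := h₂.one _ (Finset.mem_image_of_mem _ hb) (y - 2 * t)
      (by push_cast; rw [abs_le]; constructor <;> linarith)
    have e3 := h₃.one _ (Finset.mem_image_of_mem _ hb) (y - 3 * t)
      (by push_cast; rw [abs_le]; constructor <;> linarith)
    obtain ⟨a1, a2⟩ := s1 t (by rw [e1]; exact one_ne_zero)
    simp only [hg, e1, e2, e3, mul_one]
    exact one_div_le_one_div_of_le (by linarith) a2

theorem disc {p₁ p₂ p₃ r : ℝ≥0∞} (r0 : r ≠ 0) (r1 : r ≠ ⊤) (hb : BoundedAt p₁ p₂ p₃ r) :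
    ∃ C : ℝ, 0 ≤ C ∧ ∀ (G : Finset (ℤ × ℤ)) (R : ℝ), 1 ≤ R →
      (∀ g ∈ G, |(g.1 : ℝ)| ≤ R ∧ 3 * R ≤ g.2 ∧ (g.2 : ℝ) ≤ 5 * R) →
      ∑ x ∈ G.image Prod.fst, ((G.filter fun g => g.1 = x).card / (64 * R)) ^ r.toReal ≤
        8 * (C * ((G.image fun g => g.1 - g.2).card : ℝ) ^ (1 / p₁.toReal) *
          ((G.image fun g => g.1 - 2 * g.2).card : ℝ) ^ (1 / p₂.toReal) *
          ((G.image fun g => g.1 - 3 * g.2).card : ℝ) ^ (1 / p₃.toReal)) ^ r.toReal := by
  obtain ⟨C, hC⟩ := hb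
  refine ⟨C, C.2, fun G R hR hG => ?_⟩
  obtain ⟨f₁, h₁⟩ := bump (G.image fun g => g.1 - g.2)
  obtain ⟨f₂, h₂⟩ := bump (G.image fun g => g.1 - 2 * g.2)
  obtain ⟨f₃, h₃⟩ := bump (G.image fun g => g.1 - 3 * g.2)
  have rp := ENNReal.toReal_pos r0 r1
  have a1 := (hC h₁.sch h₂.sch h₃.sch).trans (mul_le_mul' (mul_le_mul'
    (mul_le_mul' le_rfl (h₁.norm_le p₁)) (h₂.norm_le p₂)) (h₃.norm_le p₃))
  rw [eLpNorm_eq_lintegral_rpow_enorm_toReal r0 r1, one_div r.toReal,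
    ENNReal.rpow_inv_le_iff rp] at a1
  have a2 := (lint (G.image Prod.fst) (fun x => ENNReal.ofReal
    (((G.filter fun g => g.1 = x).card / (64 * R)) ^ r.toReal)) _ fun x hx y hy => by
      obtain ⟨g, hg, rfl⟩ := Finset.mem_image.1 hx
      rw [← ENNReal.ofReal_rpow_of_nonneg (by positivity) rp.le]
      exact ENNReal.rpow_le_rpow (pt hR hG h₁ h₂ h₃ (hG g hg).1 hy) rp.le).trans a1
  rw [← Finset.sum_mul, ← ENNReal.ofReal_sum_of_nonneg fun _ _ => by positivity,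
    ← ENNReal.ofReal_mul (by positivity)] at a2
  have a3 := (ENNReal.ofReal_le_iff_le_toReal (by finiteness)).1 a2
  simp only [← ENNReal.toReal_rpow, ENNReal.toReal_mul, ENNReal.coe_toReal,
    ENNReal.toReal_natCast] at a3
  linarith

end Vale.Agent.P141
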