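import Mathlib

/-! The trilinear Hilbert transform with slopes 1, 2, 3, and Shannon entropy. -/

open MeasureTheory Filter Topology
open scoped ENNReal NNReal SchwartzMap

noncomputable section

namespace Vale.Agent.P141

/-- The truncation `T_{ε,R}(f₁,f₂,f₃)(x)`. -/
def trunc (f₁ f₂ f₃ : ℝ → ℂ) (ε R x : ℝ) : ℂ :=
  ∫ t in {t : ℝ | ε < |t| ∧ |t| < R}, f₁ (x - t) * f₂ (x - 2 * t) * f₃ (x - 3 * t) / t

/-- The principal value `T(f₁,f₂,f₃)(x)`: the limit as `ε → 0+`, `R → ∞`. -/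
def THT (f₁ f₂ f₃ : ℝ → ℂ) (x : ℝ) : ℂ :=
  limUnder (𝓝[>] (0 : ℝ) ×ˢ atTop) fun q : ℝ × ℝ => trunc f₁ f₂ f₃ q.1 q.2 x

/-- Hoelder tuples. -/
def Holder (p₁ p₂ p₃ r : ℝ≥0∞) : Prop :=
  1 < p₁ ∧ 1 < p₂ ∧ 1 < p₃ ∧ 0 < r ∧ r < ⊤ ∧ r⁻¹ = p₁⁻¹ + p₂⁻¹ + p₃⁻¹

/-- `T` is bounded at the tuple. -/
def BoundedAt (p₁ p₂ p₃ r : ℝ≥0∞) : Prop :=
  ∃ C : ℝ≥0, ∀ f₁ f₂ f₃ : 𝓢(ℝ, ℂ), eLpNorm (THT f₁ f₂ f₃) r volume ≤
    C * eLpNorm f₁ p₁ volume * eLpNorm f₂ p₂ volume * eLpNorm f₃ p₃ volume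

/-- The probability of the event `Z = Z ω` in the finite probability space `(ι, P)`. -/
def mg {ι β : Type} [Fintype ι] [DecidableEq β] (P : ι → ℝ) (Z : ι → β) (ω : ι) : ℝ :=
  ∑ ω' with Z ω' = Z ω, P ω'

/-- The Shannon entropy of the random variable `Z`. -/
def ent {ι β : Type} [Fintype ι] [DecidableEq β] (P : ι → ℝ) (Z : ι → β) : ℝ :=
  -∑ ω, P ω * Real.log (mg P Z ω)

end Vale.Agent.P141
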