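import Vale.Agent.P141.An

/-! Hashing vectors of integers to integers. -/

open Finset
open scoped ENNReal

noncomputable section

namespace Vale.Agent.P141

theorem sol {n M : ℕ} {d : Fin n → ℤ} (hd : d ≠ 0) :
    ((Fintype.piFinset fun _ : Fin n => Ico (0 : ℤ) M).filter fun c => c ⬝ᵥ d = 0).card * M ≤
      (Fintype.piFinset fun _ : Fin n => Ico (0 : ℤ) M).card := by
  obtain ⟨i, hi⟩ := Function.ne_iff.1 hd
  have e : (Ico (0 : ℤ) M).card = M := by simp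
  conv_lhs => rw [← e, ← card_product]
  rw [e]
  refine card_le_card_of_injOn (fun q => Function.update q.1 i q.2) (fun q hq => ?_) ?_
  · obtain ⟨h1, h2⟩ := mem_product.1 hq
    refine mem_coe.2 (Fintype.mem_piFinset.2 fun j => ?_)
    rcases eq_or_ne j i with rfl | h
    · simpa using h2
    · simpa [h] using Fintype.mem_piFinset.1 (mem_filter.1 h1).1 j
  · intro q hq q' hq' h
    have h1 : ∀ j, j ≠ i → q.1 j = q'.1 j := fun j hj => by simpa [hj] using congrFun h j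
    have h2 : (q.1 - q'.1) ⬝ᵥ d = 0 := by
      rw [sub_dotProduct, (mem_filter.1 (mem_product.1 hq).1).2,
        (mem_filter.1 (mem_product.1 hq').1).2, sub_zero]
    rw [dotProduct, sum_eq_single i (fun j _ hj => by simp [h1 j hj]) (by simp)] at h2
    refine Prod.ext (funext fun j => ?_) (by simpa using congrFun h i)
    rcases eq_or_ne j i with rfl | hj
    · exact sub_eq_zero.1 ((mul_eq_zero.1 h2).resolve_right hi)
    · exact h1 j hj

theorem hash {n M : ℕ} {γ : Type} (G : Finset γ) (D : γ → Finset (Fin n → ℤ))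
    (h0 : ∀ g ∈ G, 0 ∉ D g) (hL : ∀ g ∈ G, 2 * (D g).card ≤ M) (hM : 0 < M) :
    ∃ c : Fin n → ℤ, (∀ i, 0 ≤ c i ∧ c i < M) ∧
      G.card ≤ 2 * (G.filter fun g => ∀ d ∈ D g, c ⬝ᵥ d ≠ 0).card := by
  set S := Fintype.piFinset fun _ : Fin n => Ico (0 : ℤ) M with hS
  have a1 : ∀ g ∈ G, 2 * (S.filter fun c => ¬∀ d ∈ D g, c ⬝ᵥ d ≠ 0).card ≤ S.card := fun g hg => by
    have b1 : (S.filter fun c => ¬∀ d ∈ D g, c ⬝ᵥ d ≠ 0).card ≤
        ∑ d ∈ D g, (S.filter fun c => c ⬝ᵥ d = 0).card :=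
      (card_le_card fun c hc => by
        obtain ⟨h1, h2⟩ := mem_filter.1 hc
        push Not at h2
        obtain ⟨d, h3, h4⟩ := h2
        exact mem_biUnion.2 ⟨d, h3, mem_filter.2 ⟨h1, h4⟩⟩).trans card_biUnion_le
    have b2 : (∑ d ∈ D g, (S.filter fun c => c ⬝ᵥ d = 0).card) * M ≤ (D g).card * S.card := by
      rw [sum_mul]
      exact sum_le_card_nsmul _ _ _ fun d hd => sol fun h => h0 g hg (h ▸ hd)
    refine Nat.le_of_mul_le_mul_right ?_ hM
    have := Nat.mul_le_mul_right S.card (hL g hg)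
    nlinarith
  have a2 : ∑ c ∈ S, 2 * (G.filter fun g => ¬∀ d ∈ D g, c ⬝ᵥ d ≠ 0).card ≤ ∑ _c ∈ S, G.card := by
    simp only [card_filter, mul_sum] at a1 ⊢
    rw [sum_comm, sum_const, smul_eq_mul, mul_comm]
    exact sum_le_card_nsmul _ _ _ a1
  obtain ⟨c, hc, h⟩ := exists_le_of_sum_le
    ⟨0, Fintype.mem_piFinset.2 fun _ => by simpa using hM⟩ a2
  have := card_filter_add_card_filter_not (s := G) fun g => ∀ d ∈ D g, c ⬝ᵥ d ≠ 0
  exact ⟨c, fun i => mem_Ico.1 (Fintype.mem_piFinset.1 hc i), by omega⟩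

/-- The projection with slope `j`. -/
def pr {n : ℕ} (j : ℤ) (g : Fin n → ℤ × ℤ) : Fin n → ℤ := fun i => (g i).1 - j * (g i).2

/-- The second coordinates. -/
def tv {n : ℕ} (g : Fin n → ℤ × ℤ) : Fin n → ℤ := fun i => (g i).2

theorem pr_eq {n : ℕ} (j : ℤ) (g : Fin n → ℤ × ℤ) : pr j g = pr 0 g - j • tv g := by
  ext i
  simp [pr, tv]

theorem dot_le {n M B : ℕ} {c a : Fin n → ℤ} (hc : ∀ i, 0 ≤ c i ∧ c i < M) (ha : ∀ i, |a i| ≤ B) :
    |c ⬝ᵥ a| ≤ n * (M * B) := by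
  refine (abs_sum_le_sum_abs _ _).trans ((sum_le_card_nsmul _ _ (M * B : ℤ) fun i _ => ?_).trans_eq
    (by simp))
  rw [abs_mul, abs_of_nonneg (hc i).1]
  exact mul_le_mul (hc i).2.le (ha i) (abs_nonneg _) (by positivity)

theorem mono3 {C a b c a' b' c' u v w ρ : ℝ} (C0 : 0 ≤ C) (a0 : 0 ≤ a) (b0 : 0 ≤ b) (c0 : 0 ≤ c)
    (ha : a ≤ a') (hb : b ≤ b') (hc : c ≤ c') (hu : 0 ≤ u) (hv : 0 ≤ v) (hw : 0 ≤ w) (hρ : 0 ≤ ρ) :
    8 * (C * a ^ u * b ^ v * c ^ w) ^ ρ ≤ 8 * (C * a' ^ u * b' ^ v * c' ^ w) ^ ρ := by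
  have := a0.trans ha
  have := b0.trans hb
  gcongr

theorem vec {p₁ p₂ p₃ r : ℝ≥0∞} (r0 : r ≠ 0) (r1 : r ≤ 1) (hb : BoundedAt p₁ p₂ p₃ r) :
    ∃ C : ℝ, 0 ≤ C ∧ ∀ (n B M : ℕ) (G : Finset (Fin n → ℤ × ℤ)) (K μ : ℝ) (N : ℤ → ℝ),
      (∀ g ∈ G, ∀ i, |(g i).1| ≤ B ∧ |(g i).2| ≤ B) → ((G.image (pr 0)).card : ℝ) ≤ K →
      (∀ g ∈ G, ((G.filter fun h => pr 0 h = pr 0 g).card : ℝ) ≤ μ) →
      (∀ j ∈ ({1, 2, 3} : Finset ℤ), ((G.image (pr j)).card : ℝ) ≤ N j) → 2 * (K + μ) ≤ M → 0 < M →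
      0 < μ → G.card / 2 * μ ^ (r.toReal - 1) / (64 * (n * (M * B) + 1)) ^ r.toReal ≤
        8 * (C * N 1 ^ (1 / p₁.toReal) * N 2 ^ (1 / p₂.toReal) * N 3 ^ (1 / p₃.toReal)) ^
          r.toReal := by
  have rt : r ≠ ⊤ := ne_top_of_le_ne_top ENNReal.one_ne_top r1
  have rp := ENNReal.toReal_pos r0 rt
  have rl : r.toReal ≤ 1 := ENNReal.toReal_mono ENNReal.one_ne_top r1
  obtain ⟨C, C0, hC⟩ := disc r0 rt hb
  refine ⟨C, C0, fun n B M G K μ N hB hK hμ hN hM M0 μ0 => ?_⟩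
  set D := fun g => (((G.image (pr 0)).image (pr 0 g - ·)) ∪
    (G.filter fun h => pr 0 h = pr 0 g).image fun h => tv g - tv h).erase 0 with hD
  obtain ⟨c, hc, h⟩ := hash (M := M) G D (fun _ _ => notMem_erase _ _) (fun g hg => by
      have := hμ g hg
      refine (Nat.cast_le (α := ℝ)).1 (le_trans ?_ hM)
      push_cast
      refine mul_le_mul_of_nonneg_left (le_trans ?_ (add_le_add hK this)) zero_le_two
      exact_mod_cast card_erase_le.trans ((card_union_le _ _).trans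
        (add_le_add card_image_le card_image_le))) M0
  set G' := G.filter fun g => ∀ d ∈ D g, c ⬝ᵥ d ≠ 0 with hG'
  set R : ℤ := n * (M * B) + 1 with hR
  set φ := fun g : Fin n → ℤ × ℤ => (c ⬝ᵥ pr 0 g, c ⬝ᵥ tv g + 4 * R) with hφ
  have i1 : ∀ g ∈ G', ∀ h ∈ G, (φ g).1 = (φ h).1 → pr 0 h = pr 0 g := fun g hg h hh e => by
    by_contra hne
    refine (mem_filter.1 hg).2 (pr 0 g - pr 0 h) (mem_erase.2 ⟨sub_ne_zero.2 (Ne.symm hne),
      mem_union_left _ (mem_image_of_mem _ (mem_image_of_mem _ hh))⟩) ?_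
    rw [dotProduct_sub]
    exact sub_eq_zero.2 e
  have i2 : Set.InjOn φ G' := fun g hg h hh e => by
    have e1 := i1 g hg h (mem_filter.1 hh).1 (congrArg Prod.fst e)
    have e2 : tv g = tv h := by
      by_contra hne
      refine (mem_filter.1 hg).2 (tv g - tv h) (mem_erase.2 ⟨sub_ne_zero.2 hne, mem_union_right _
        (mem_image_of_mem _ (mem_filter.2 ⟨(mem_filter.1 hh).1, e1⟩))⟩) ?_
      rw [dotProduct_sub]
      exact sub_eq_zero.2 (add_right_cancel (congrArg Prod.snd e))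
    ext i
    · simpa [pr] using (congrFun e1 i).symm
    · exact congrFun e2 i
  have sb : G' ⊆ G := filter_subset _ _
  clear_value G' D
  have R1 : (1 : ℝ) ≤ R := by
    rw [hR]
    push_cast
    exact le_add_of_nonneg_left (by positivity)
  have a1 := hC (G'.image φ) R R1 fun q hq => by
    obtain ⟨g, hg, rfl⟩ := mem_image.1 hq
    have b1 := dot_le (a := pr 0 g) hc fun i => by simpa [pr] using (hB g (sb hg) i).1
    have b2 := abs_le.1 (dot_le (a := tv g) hc fun i => (hB g (sb hg) i).2)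
    refine ⟨?_, ?_, ?_⟩ <;> norm_cast <;> simp only [hφ] <;> omega
  have a2 : ∀ j ∈ ({1, 2, 3} : Finset ℤ),
      (((G'.image φ).image fun g => g.1 - j * g.2).card : ℝ) ≤ N j := fun j hj => by
    refine le_trans (Nat.cast_le.2 ((card_le_card fun y hy => ?_).trans
      (card_image_le (f := fun a => c ⬝ᵥ a - j * (4 * R))))) (hN j hj)
    obtain ⟨q, hq, rfl⟩ := mem_image.1 hy
    obtain ⟨g, hg, rfl⟩ := mem_image.1 hq
    refine mem_image.2 ⟨_, mem_image_of_mem _ (sb hg), ?_⟩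
    rw [pr_eq, dotProduct_sub, dotProduct_smul, smul_eq_mul]
    simp only [hφ]
    ring
  have a3 := a2 1 (by decide)
  have a5 := a2 2 (by decide)
  have a6 := a2 3 (by decide)
  simp only [one_mul] at a3
  refine le_trans ?_ (a1.trans (mono3 C0 (Nat.cast_nonneg _) (Nat.cast_nonneg _)
    (Nat.cast_nonneg _) a3 a5 a6 (by positivity) (by positivity) (by positivity) rp.le))
  have a4 : (G.card : ℝ) / 2 ≤ (G'.image φ).card := by
    rw [card_image_of_injOn i2, div_le_iff₀' two_pos]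
    exact_mod_cast h
  rw [card_eq_sum_card_image Prod.fst (G'.image φ), Nat.cast_sum] at a4
  have eR : (R : ℝ) = n * (M * B) + 1 := by
    rw [hR]
    push_cast
    rfl
  rw [← eR]
  refine le_trans (div_le_div_of_nonneg_right (mul_le_mul_of_nonneg_right a4 (by positivity))
    (by positivity)) ?_
  rw [sum_mul, sum_div]
  refine sum_le_sum fun x hx => ?_
  obtain ⟨q, hq, rfl⟩ := mem_image.1 hx
  have b1 : (0 : ℝ) < ((G'.image φ).filter fun g => g.1 = q.1).card :=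
    Nat.cast_pos.2 (card_pos.2 ⟨q, mem_filter.2 ⟨hq, rfl⟩⟩)
  obtain ⟨g, hg, rfl⟩ := mem_image.1 hq
  have b2 : (((G'.image φ).filter fun h => h.1 = (φ g).1).card : ℝ) ≤ μ := by
    refine le_trans (Nat.cast_le.2 ((card_le_card fun y hy => ?_).trans (card_image_le (f := φ))))
      (hμ g (sb hg))
    obtain ⟨h, hh, rfl⟩ := mem_image.1 (mem_filter.1 hy).1
    exact mem_image_of_mem _ (mem_filter.2 ⟨(sb hh),
      i1 g hg h (sb hh) (mem_filter.1 hy).2.symm⟩)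
  rw [Real.div_rpow b1.le (by positivity)]
  refine div_le_div_of_nonneg_right ?_ (by positivity)
  refine (mul_le_mul_of_nonneg_left (Real.rpow_le_rpow_of_nonpos b1 b2 (by linarith))
    b1.le).trans_eq ?_
  rw [Real.rpow_sub_one b1.ne', mul_div_cancel₀ _ b1.ne']

end Vale.Agent.P141
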