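import Vale.Agent.P141.Prob

/-! The entropy inequality. -/

open Finset Filter Topology Real
open scoped ENNReal

noncomputable section

namespace Vale.Agent.P141

variable {ι : Type} [Fintype ι] {P : ι → ℝ}

theorem ent_nonneg {β : Type} [DecidableEq β] (hP : ∀ s, 0 < P s) (h1 : ∑ ω, P ω = 1) (Z : ι → β) :
    0 ≤ ent P Z :=
  neg_nonneg.2 (sum_nonpos fun ω _ => mul_nonpos_of_nonneg_of_nonpos (hP ω).le
    (log_nonpos (mg_pos hP Z ω).le
      ((sum_le_univ_sum_of_nonneg fun s => (hP s).le).trans h1.le)))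

theorem le_exp {x y z : ℝ} (h : x * exp (-y) ≤ exp (-z)) : x ≤ exp (y - z) := by
  rwa [sub_eq_neg_add, exp_add, ← div_le_iff₀ (exp_pos _), div_eq_mul_inv, ← exp_neg]

theorem typical (hP : ∀ s, 0 < P s) (h1 : ∑ ω, P ω = 1) (X T : ι → ℤ) {ε : ℝ} (hε : 0 < ε) :
    ∀ᶠ n : ℕ in atTop, ∃ G : Finset (Fin n → ℤ × ℤ), (∀ g ∈ G, ∀ i, ∃ ω, g i = (X ω, T ω)) ∧
      exp (n * (ent P (fun ω => (X ω, T ω)) - ε)) / 2 ≤ G.card ∧
      (∀ j ∈ ({0, 1, 2, 3} : Finset ℤ),
        ((G.image (pr j)).card : ℝ) ≤ exp (n * (ent P (fun ω => X ω - j * T ω) + ε))) ∧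
      ∀ g ∈ G, ((G.filter fun h => pr 0 h = pr 0 g).card : ℝ) ≤
        exp (n * (ent P (fun ω => (X ω, T ω)) + ε) - n * (ent P (fun ω => X ω - 0 * T ω) - ε)) := by
  classical
  have t := fun j : ℤ => typ hP h1 (fun ω => X ω - j * T ω) hε
  have t0 : Neg P fun n s => ¬(Typ P (fun ω => (X ω, T ω)) ε n s ∧
      ∀ j ∈ ({0, 1, 2, 3} : Finset ℤ), Typ P (fun ω => X ω - j * T ω) ε n s) :=
    (typ hP h1 (fun ω => (X ω, T ω)) hε).or hP ((t 0).or hP ((t 1).or hP ((t 2).or hP (t 3)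
      fun _ _ h => h) fun _ _ h => h) fun _ _ h => h) fun n s h => by
      simp only [mem_insert, mem_singleton, forall_eq_or_imp, forall_eq] at h
      tauto
  filter_upwards [t0.eventually (gt_mem_nhds (show (0 : ℝ) < 1 / 2 by norm_num))] with n hn
  set S := univ.filter fun s => Typ P (fun ω => (X ω, T ω)) ε n s ∧
    ∀ j ∈ ({0, 1, 2, 3} : Finset ℤ), Typ P (fun ω => X ω - j * T ω) ε n s with hS
  have p0 := pw_nn hP n
  have p1 : ∑ s, pw P n s = 1 := by rw [sum_pw, h1, one_pow]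
  have a1 : 1 / 2 ≤ ∑ s ∈ S, pw P n s := by
    refine le_trans ?_ (sub_le_iff_le_add.2 (p1.symm.trans_le ?_) |>.trans' (sub_le_sub_left hn.le 1))
    · norm_num
    · rw [hS, sum_filter, ← sum_add_distrib]
      refine sum_le_sum fun s _ => ?_
      split_ifs <;> simp
  refine ⟨S.image fun s i => (X (s i), T (s i)), fun g hg i => ?_, ?_, fun j hj => ?_,
    fun g hg => ?_⟩
  · obtain ⟨s, -, rfl⟩ := mem_image.1 hg
    exact ⟨s i, rfl⟩
  · have := a1.trans (le_card p0 fun s hs => (mem_filter.1 hs).2.1.2)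
    rw [exp_neg, ← div_eq_mul_inv, le_div_iff₀ (exp_pos _)] at this
    linarith
  · rw [image_image]
    have := (card_le p0 (S := S) (T := univ) (fun _ _ _ _ => mem_univ _)
      fun s hs => ((mem_filter.1 hs).2.2 j hj).1).trans (p1.trans (by simp : 1 = exp (-0))).le
    exact (le_exp this).trans_eq (by rw [sub_zero])
  · obtain ⟨s, hs, rfl⟩ := mem_image.1 hg
    rw [filter_image]
    refine le_exp ((card_le p0 (fun u hu u' e => ?_)
      fun u hu => (mem_filter.1 (mem_filter.1 hu).1).2.1.1).trans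
      ((mem_filter.1 hs).2.2 0 (by simp)).2)
    exact mem_filter.2 ⟨mem_univ _, (congrArg (pr 0) e).trans (mem_filter.1 hu).2⟩

theorem entropy_ineq {p₁ p₂ p₃ r : ℝ≥0∞} (r0 : r ≠ 0) (r1 : r ≤ 1) (hb : BoundedAt p₁ p₂ p₃ r)
    (hP : ∀ s, 0 < P s) (h1 : ∑ ω, P ω = 1) (X T : ι → ℤ) :
    ent P X + r.toReal * (ent P (fun ω => (X ω, T ω)) - ent P X) ≤
      (r / p₁).toReal * ent P (fun ω => X ω - T ω) +
      (r / p₂).toReal * ent P (fun ω => X ω - 2 * T ω) +
      (r / p₃).toReal * ent P (fun ω => X ω - 3 * T ω) +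
      r.toReal * max (ent P X) (ent P (fun ω => (X ω, T ω)) - ent P X) := by
  obtain ⟨C, C0, hC⟩ := vec r0 r1 hb
  have rp := ENNReal.toReal_pos r0 (ne_top_of_le_ne_top ENNReal.one_ne_top r1)
  have rl : r.toReal ≤ 1 := ENNReal.toReal_mono ENNReal.one_ne_top r1
  simp only [ENNReal.toReal_div, div_eq_mul_one_div r.toReal]
  have u0 : 0 ≤ 1 / p₁.toReal := by positivity
  have v0 : 0 ≤ 1 / p₂.toReal := by positivity
  have w0 : 0 ≤ 1 / p₃.toReal := by positivity
  generalize 1 / p₁.toReal = u, 1 / p₂.toReal = v, 1 / p₃.toReal = w, r.toReal = ρ at *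
  obtain ⟨B, hB⟩ : ∃ B : ℕ, ∀ ω, |X ω| ≤ B ∧ |T ω| ≤ B := by
    refine ⟨univ.sup fun ω => (X ω).natAbs + (T ω).natAbs, fun ω => ?_⟩
    have := le_sup (f := fun ω => (X ω).natAbs + (T ω).natAbs) (mem_univ ω)
    simp only [Int.abs_eq_natAbs]
    omega
  have a0 := ent_nonneg hP h1 X
  have m1 := le_max_left (ent P X) (ent P (fun ω => (X ω, T ω)) - ent P X)
  have m2 := le_max_right (ent P X) (ent P (fun ω => (X ω, T ω)) - ent P X)
  generalize max (ent P X) (ent P (fun ω => (X ω, T ω)) - ent P X) = m at *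
  refine le_of_forall_pos_le_add fun δ hδ => le_of_not_gt fun hc => ?_
  have c0 : 0 < 3 + ρ + ρ * (u + v + w) := by positivity
  obtain ⟨ε, hε, e⟩ : ∃ ε, 0 < ε ∧ ε * (3 + ρ + ρ * (u + v + w)) = δ / 2 :=
    ⟨δ / 2 / _, div_pos (half_pos hδ) c0, div_mul_cancel₀ _ c0.ne'⟩
  obtain ⟨n, ⟨G, g1, g2, g3, g4⟩, hn⟩ := ((typical hP h1 X T hε).and
    ((tendsto_exp_atTop.comp (tendsto_natCast_atTop_atTop.atTop_mul_const
      (half_pos hδ))).eventually_gt_atTop (32 * C ^ ρ * (64 * (5 * B / ε + 1)) ^ ρ))).exists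
  have g0 := g3 0 (by simp)
  simp only [zero_mul, sub_zero] at g0 g4
  have n0 : (0 : ℝ) ≤ n := by positivity
  have k1 : exp (n * (ent P X + ε)) ≤ exp (n * (m + 2 * ε)) := by gcongr; linarith
  have k2 : exp (n * (ent P (fun ω => (X ω, T ω)) + ε) - n * (ent P X - ε)) ≤
      exp (n * (m + 2 * ε)) := exp_le_exp.2 (by nlinarith)
  have k3 : 1 ≤ exp (n * (m + 2 * ε)) := one_le_exp (mul_nonneg n0 (by linarith))
  have a1 := hC n B ⌈4 * exp (n * (m + 2 * ε))⌉₊ G _ _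
    (fun j => exp (n * (ent P (fun ω => X ω - j * T ω) + ε)))
    (fun g hg i => by obtain ⟨ω, h⟩ := g1 g hg i; simpa [h] using hB ω) g0 g4
    (fun j hj => g3 j (mem_insert_of_mem hj)) (le_trans (by linarith) (Nat.le_ceil _))
    (Nat.ceil_pos.2 (by positivity)) (exp_pos _)
  have k4 : (⌈4 * exp (n * (m + 2 * ε))⌉₊ : ℝ) ≤ 5 * exp (n * (m + 2 * ε)) := by
    linarith [Nat.ceil_lt_add_one (show 0 ≤ 4 * exp (n * (m + 2 * ε)) by positivity)]
  have k5 : (n : ℝ) ≤ exp (n * ε) / ε := by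
    rw [le_div_iff₀ hε]
    linarith [add_one_le_exp (n * ε)]
  have k6 : (n : ℝ) * (⌈4 * exp (n * (m + 2 * ε))⌉₊ * B) + 1 ≤
      (5 * B / ε + 1) * exp (n * (m + 3 * ε)) := by
    have e1 : exp (n * (m + 3 * ε)) = exp (n * ε) * exp (n * (m + 2 * ε)) := by
      rw [← exp_add]
      ring_nf
    rw [add_mul, one_mul]
    refine add_le_add ((mul_le_mul k5 (mul_le_mul_of_nonneg_right k4 (by positivity))
      (by positivity) (by positivity)).trans_eq ?_) (one_le_exp (mul_nonneg n0 (by linarith)))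
    rw [e1]
    ring
  have a2 := le_trans (div_le_div₀ (by positivity) (mul_le_mul_of_nonneg_right
    (div_le_div_of_nonneg_right g2 zero_le_two) (by positivity)) (by positivity)
    (rpow_le_rpow (by positivity) (mul_le_mul_of_nonneg_left k6 (by norm_num)) rp.le)) a1
  rw [← mul_assoc, mul_rpow (by positivity) (by positivity), div_le_iff₀ (by positivity),
    mul_rpow (by positivity) (by positivity), mul_rpow (by positivity) (by positivity),
    mul_rpow C0 (by positivity)] at a2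
  simp only [← exp_mul, one_mul] at a2
  refine hn.not_ge ?_
  have a3 : exp (n * (ent P (fun ω => (X ω, T ω)) - ε) +
      (n * (ent P (fun ω => (X ω, T ω)) + ε) - n * (ent P X - ε)) * (ρ - 1)) ≤
      32 * C ^ ρ * (64 * (5 * B / ε + 1)) ^ ρ * exp (n * (ent P (fun ω => X ω - T ω) + ε) * u * ρ +
        n * (ent P (fun ω => X ω - 2 * T ω) + ε) * v * ρ +
        n * (ent P (fun ω => X ω - 3 * T ω) + ε) * w * ρ + n * (m + 3 * ε) * ρ) := by
    simp only [exp_add]
    linarith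
  rw [← div_le_iff₀ (exp_pos _), ← exp_sub] at a3
  refine le_trans (exp_le_exp.2 ?_) a3
  have := mul_le_mul_of_nonneg_left hc.le n0
  have e2 := congrArg ((n : ℝ) * ·) e
  nlinarith

end Vale.Agent.P141
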