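import Vale.Agent.P141.Main

/-! A lattice Gaussian. -/

open Finset Real
open scoped ENNReal

namespace Vale.Agent.P141

section

variable {ι β : Type} [Fintype ι] [DecidableEq β]

/-- Integer version of the exponential of the entropy. -/
def np (W : ι → ℕ) (Z : ι → β) : ℕ := ∏ ω, (∑ ω' with Z ω' = Z ω, W ω') ^ W ω

theorem nm_pos {W : ι → ℕ} (hW : ∀ ω, 0 < W ω) (Z : ι → β) (ω : ι) :
    0 < ∑ ω' with Z ω' = Z ω, W ω' :=
  sum_pos (fun _ _ => hW _) ⟨ω, mem_filter.2 ⟨mem_univ _, rfl⟩⟩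

theorem np_pos {W : ι → ℕ} (hW : ∀ ω, 0 < W ω) (Z : ι → β) : (0 : ℝ) < np W Z :=
  Nat.cast_pos.2 (prod_pos fun ω _ => pow_pos (nm_pos hW Z ω) _)

theorem ent_eq {W : ι → ℕ} (hW : ∀ ω, 0 < W ω) {D : ℕ} (hD : ∑ ω, W ω = D) (D0 : 0 < D)
    (Z : ι → β) : ent (fun ω => (W ω : ℝ) / D) Z = log D - log (np W Z) / D := by
  have D1 : (D : ℝ) ≠ 0 := Nat.cast_ne_zero.2 D0.ne'
  have e : ∀ ω, log (mg (fun ω => (W ω : ℝ) / D) Z ω) =
      log (∑ ω' with Z ω' = Z ω, W ω' : ℕ) - log D := fun ω => by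
    rw [mg, ← sum_div, log_div _ D1, Nat.cast_sum]
    exact_mod_cast (nm_pos hW Z ω).ne'
  rw [np, Nat.cast_prod, log_prod fun ω _ => Nat.cast_ne_zero.2 (pow_pos (nm_pos hW Z ω) _).ne']
  simp only [ent, e, mul_sub, sum_sub_distrib, ← sum_mul, ← sum_div, Nat.cast_pow, log_pow]
  rw [← Nat.cast_sum, hD, div_self D1, sum_div]
  simp only [div_mul_eq_mul_div]
  ring

theorem lg {A D H B a b c d : ℕ} (hA : (0 : ℝ) < A) (hD : (0 : ℝ) < D) (hH : (0 : ℝ) < H)
    (h : A ^ a * D ^ b * H ^ c < B ^ d) : a * log A + b * log D + c * log H < d * log B := by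
  have := log_lt_log (by positivity) (show (A : ℝ) ^ a * D ^ b * H ^ c < B ^ d by exact_mod_cast h)
  rwa [log_mul (by positivity) (by positivity), log_mul (by positivity) (by positivity), log_pow,
    log_pow, log_pow, log_pow] at this

theorem lg' {A D H a b : ℕ} (hA : (0 : ℝ) < A) (hD : (0 : ℝ) < D) (hH : (0 : ℝ) < H)
    (h : A ^ a ≤ D ^ b * H) : a * log A ≤ b * log D + log H := by
  have := log_le_log (by positivity) (show (A : ℝ) ^ a ≤ D ^ b * H by exact_mod_cast h)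
  rwa [log_mul (by positivity) (by positivity), log_pow, log_pow] at this

end

/-- The points and their weights. -/
def pts : List (ℤ × ℤ × ℕ) :=
  [(-9, -3, 1), (-10, -4, 2), (-11, -5, 2), (-12, -6, 1), (-5, -1, 2), (-6, -2, 7), (-7, -3,
    12), (-8, -4, 7), (-9, -5, 2), (-1, 1, 2), (-2, 0, 12), (-3, -1, 31), (-4, -2, 31), (-5,
    -3, 12), (-6, -4, 2), (3, 3, 1), (2, 2, 7), (1, 1, 31), (0, 0, 50), (-1, -1, 31), (-2, -2,
    7), (-3, -3, 1), (6, 4, 2), (5, 3, 12), (4, 2, 31), (3, 1, 31), (2, 0, 12), (1, -1, 2),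
    (9, 5, 2), (8, 4, 7), (7, 3, 12), (6, 2, 7), (5, 1, 2), (12, 6, 1), (11, 5, 2), (10, 4,
    2), (9, 3, 1)]

/-- First coordinate. -/
def eX (i : Fin 37) : ℤ := (pts.getD i 0).1

/-- Second coordinate. -/
def eT (i : Fin 37) : ℤ := (pts.getD i 0).2.1

/-- Weight. -/
def eW (i : Fin 37) : ℕ := (pts.getD i 0).2.2

theorem eW_pos : ∀ i, 0 < eW i := by decide +kernel

theorem eW_sum : ∑ i, eW i = 380 := by decide +kernel

theorem num0 : np eW eX ^ 2 ≤ 380 ^ 380 * np eW fun ω => (eX ω, eT ω) := by decide +kernel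

theorem num1 : ∀ j ∈ [1, 2, 3],
    np eW eX ^ 7 * 380 ^ (59 * 380) * np eW (fun ω => (eX ω, eT ω)) ^ 59 <
      np eW (fun ω => eX ω - j * eT ω) ^ 125 := by decide +kernel

theorem unbounded {p₁ p₂ p₃ r : ℝ≥0∞} (h : Holder p₁ p₂ p₃ r) (hr : r ≤ 59 / 125) :
    ¬BoundedAt p₁ p₂ p₃ r := fun hb => by
  obtain ⟨h1, h2, h3, r0, rt, e⟩ := h
  have rl : r.toReal ≤ 59 / 125 := by
    simpa using ENNReal.toReal_mono (ENNReal.div_ne_top (by simp) (by simp)) hr
  have a := entropy_ineq r0.ne' (hr.trans (ENNReal.div_le_of_le_mul (by norm_num))) hb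
    (P := fun ω => (eW ω : ℝ) / (380 : ℕ)) (fun ω => by have := eW_pos ω; positivity)
    (by rw [← sum_div, ← Nat.cast_sum, eW_sum]; norm_num) eX eT
  have s : (r / p₁).toReal + (r / p₂).toReal + (r / p₃).toReal = 1 := by
    have f : ∀ {p : ℝ≥0∞}, 1 < p → r / p ≠ ⊤ := fun h =>
      ENNReal.div_ne_top rt.ne (zero_lt_one.trans h).ne'
    rw [← ENNReal.toReal_add (f h1) (f h2),
      ← ENNReal.toReal_add (ENNReal.add_ne_top.2 ⟨f h1, f h2⟩) (f h3)]
    simp only [div_eq_mul_inv, ← mul_add, ← e]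
    rw [ENNReal.mul_inv_cancel r0.ne' rt.ne, ENNReal.toReal_one]
  simp only [ent_eq eW_pos eW_sum (by norm_num)] at a
  have q := fun {β : Type} [DecidableEq β] (Z : Fin 37 → β) => np_pos eW_pos Z
  have b0 := lg' (q _) (by norm_num) (q _) num0
  have b := fun j hj => lg (q _) (by norm_num) (q _) (num1 j hj)
  have b1 := b 1 (by simp)
  have b2 := b 2 (by simp)
  have b3 := b 3 (by simp)
  simp only [one_mul] at b1
  have t1 := (r / p₁).toReal_nonneg
  have t2 := (r / p₂).toReal_nonneg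
  have t3 := (r / p₃).toReal_nonneg
  push_cast at a b0 b1 b2 b3
  generalize log (np eW eX) = A, log (np eW fun ω => (eX ω, eT ω)) = H,
    log (np eW fun ω => eX ω - eT ω) = B₁, log (np eW fun ω => eX ω - 2 * eT ω) = B₂,
    log (np eW fun ω => eX ω - 3 * eT ω) = B₃, log 380 = L, (r / p₁).toReal = u,
    (r / p₂).toReal = v, (r / p₃).toReal = w, r.toReal = ρ at *
  rw [max_eq_left (by linarith)] at a
  obtain ⟨m, m0, m1, m2, m3⟩ : ∃ m, 7 * A + 22420 * L + 59 * H < 125 * m ∧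
      m ≤ B₁ ∧ m ≤ B₂ ∧ m ≤ B₃ := ⟨min B₁ (min B₂ B₃), by
    simp only [← div_lt_iff₀' (show (0 : ℝ) < 125 by norm_num), lt_min_iff] at *
    exact ⟨b1, b2, b3⟩, by simp, by simp, by simp⟩
  have c1 := mul_le_mul_of_nonneg_left m1 t1
  have c2 := mul_le_mul_of_nonneg_left m2 t2
  have c3 := mul_le_mul_of_nonneg_left m3 t3
  have c4 := mul_le_mul_of_nonneg_right rl (sub_nonneg.2 b0)
  have c5 := congrArg (· * L) s
  have c6 := congrArg (· * m) s
  linarith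

end Vale.Agent.P141
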