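import Vale.Agent.P141.Hash

/-! Typical sets. -/

open Finset Filter Topology

noncomputable section

namespace Vale.Agent.P141

variable {ι β : Type} [Fintype ι] [DecidableEq β] {P : ι → ℝ}

theorem sum_fib (P : ι → ℝ) (Z : ι → β) (I : Finset β) :
    ∑ y ∈ I, ∑ s with Z s = y, P s = ∑ s with Z s ∈ I, P s :=
  sum_fiberwise_eq_sum_filter _ _ _ _

theorem card_le (hP : ∀ s, 0 ≤ P s) {S T : Finset ι} {Z : ι → β} {η : ℝ}
    (hT : ∀ s ∈ S, ∀ s', Z s' = Z s → s' ∈ T) (h : ∀ s ∈ S, η ≤ mg P Z s) :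
    (S.image Z).card * η ≤ ∑ s ∈ T, P s := by
  refine le_trans ?_ ((sum_fib P Z (S.image Z)).trans_le
    (sum_le_sum_of_subset_of_nonneg (fun s' hs' => ?_) fun _ _ _ => hP _))
  · rw [← nsmul_eq_mul]
    refine card_nsmul_le_sum _ _ _ fun y hy => ?_
    obtain ⟨s, hs, rfl⟩ := mem_image.1 hy
    exact h s hs
  · obtain ⟨s, hs, e⟩ := mem_image.1 (mem_filter.1 hs').2
    exact hT s hs s' e.symm

theorem le_card (hP : ∀ s, 0 ≤ P s) {S : Finset ι} {Z : ι → β} {η : ℝ}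
    (h : ∀ s ∈ S, mg P Z s ≤ η) : ∑ s ∈ S, P s ≤ (S.image Z).card * η := by
  refine (sum_le_sum_of_subset_of_nonneg
    (fun s hs => mem_filter.2 ⟨mem_univ _, mem_image_of_mem Z hs⟩) fun _ _ _ => hP _).trans
    ((sum_fib P Z (S.image Z)).symm.trans_le ?_)
  rw [← nsmul_eq_mul]
  refine sum_le_card_nsmul _ _ _ fun y hy => ?_
  obtain ⟨s, hs, rfl⟩ := mem_image.1 hy
  exact h s hs

/-- The product weights. -/
def pw (P : ι → ℝ) (n : ℕ) (s : Fin n → ι) : ℝ := ∏ i, P (s i)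

theorem sum_pw (P : ι → ℝ) (n : ℕ) : ∑ s, pw P n s = (∑ ω, P ω) ^ n := by
  classical
  simpa [pw] using (prod_univ_sum (fun _ : Fin n => (univ : Finset ι)) fun _ => P).symm

theorem mg_pw (Z : ι → β) {n : ℕ} (s : Fin n → ι) :
    mg (pw P n) (fun s i => Z (s i)) s = ∏ i, mg P Z (s i) := by
  classical
  simp only [mg, pw]
  rw [prod_univ_sum]
  refine sum_congr ?_ fun _ _ => rfl
  ext t
  simp [funext_iff]

theorem mg_pos (hP : ∀ s, 0 < P s) (Z : ι → β) (s : ι) : 0 < mg P Z s :=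
  sum_pos (fun _ _ => hP _) ⟨s, mem_filter.2 ⟨mem_univ _, rfl⟩⟩

open Classical in
/-- Events of vanishing probability. -/
def Neg (P : ι → ℝ) (A : ∀ n, (Fin n → ι) → Prop) : Prop :=
  Tendsto (fun n => ∑ s, if A n s then pw P n s else 0) atTop (𝓝 0)

omit [Fintype ι] in
theorem pw_nn (hP : ∀ s, 0 < P s) (n : ℕ) (s : Fin n → ι) : 0 ≤ pw P n s :=
  prod_nonneg fun _ _ => (hP _).le

theorem Neg.or (hP : ∀ s, 0 < P s) {A B C : ∀ n, (Fin n → ι) → Prop} (hA : Neg P A) (hB : Neg P B)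
    (h : ∀ n s, C n s → A n s ∨ B n s) : Neg P C := by
  refine squeeze_zero (fun n => sum_nonneg fun s _ => ?_) (fun n => ?_) (add_zero (0 : ℝ) ▸ hA.add hB)
  · split_ifs
    exacts [pw_nn hP n s, le_rfl]
  · rw [← sum_add_distrib]
    refine sum_le_sum fun s _ => ?_
    have := pw_nn hP n s
    have := h n s
    split_ifs <;> first | linarith | tauto

theorem lln (hP : ∀ s, 0 < P s) (h1 : ∑ ω, P ω = 1) {Y : ι → ℝ} (hY : ∑ ω, P ω * Y ω < 0) :
    Neg P fun _ s => 0 ≤ ∑ i, Y (s i) := by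
  have hd : HasDerivAt (fun u : ℝ => ∑ ω, P ω * Real.exp (u * Y ω)) (∑ ω, P ω * Y ω) 0 := by
    simpa using HasDerivAt.fun_sum (u := univ) fun ω _ =>
      (((hasDerivAt_id (0 : ℝ)).mul_const (Y ω)).exp).const_mul (P ω)
  obtain ⟨u, h2, u0⟩ := ((hd.tendsto_slope_zero_right.eventually (gt_mem_nhds hY)).and
    self_mem_nhdsWithin).exists
  have h3 : ∑ ω, P ω * Real.exp (u * Y ω) < 1 := by
    simp only [zero_add, zero_mul, Real.exp_zero, mul_one, h1, smul_eq_mul] at h2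
    exact sub_neg.1 (neg_of_mul_neg_right h2 (inv_nonneg.2 (le_of_lt u0)))
  refine squeeze_zero (fun n => sum_nonneg fun s _ => ?_) (fun n => ?_)
    (tendsto_pow_atTop_nhds_zero_of_lt_one (sum_nonneg fun ω _ => by have := hP ω; positivity) h3)
  · split_ifs
    exacts [pw_nn hP n s, le_rfl]
  · rw [← sum_pw]
    refine sum_le_sum fun s _ => ?_
    have e : pw (fun ω => P ω * Real.exp (u * Y ω)) n s =
        pw P n s * Real.exp (u * ∑ i, Y (s i)) := by
      rw [pw, prod_mul_distrib, mul_sum, Real.exp_sum]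
      rfl
    have := pw_nn hP n s
    rw [e]
    split_ifs with h
    · exact le_mul_of_one_le_right this (Real.one_le_exp (mul_nonneg (le_of_lt u0) h))
    · positivity

/-- Typical sequences. -/
def Typ (P : ι → ℝ) (Z : ι → β) (ε : ℝ) (n : ℕ) (s : Fin n → ι) : Prop :=
  Real.exp (-(n * (ent P Z + ε))) ≤ mg (pw P n) (fun s i => Z (s i)) s ∧
    mg (pw P n) (fun s i => Z (s i)) s ≤ Real.exp (-(n * (ent P Z - ε)))

theorem typ (hP : ∀ s, 0 < P s) (h1 : ∑ ω, P ω = 1) (Z : ι → β) {ε : ℝ} (hε : 0 < ε) :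
    Neg P fun n s => ¬Typ P Z ε n s := by
  refine (lln hP h1 (Y := fun ω => Real.log (mg P Z ω) + (ent P Z - ε)) ?_).or hP
    (lln hP h1 (Y := fun ω => -Real.log (mg P Z ω) - (ent P Z + ε)) ?_) fun n s h => ?_
  · simp only [mul_add, sum_add_distrib, ← sum_mul, h1, ent]
    linarith
  · simp only [mul_sub, mul_neg, sum_sub_distrib, sum_neg_distrib, ← sum_mul, h1, ent]
    linarith
  · by_contra hc
    refine h ?_
    simp only [not_or, not_le, sum_add_distrib, sum_sub_distrib, sum_neg_distrib, sum_const,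
      card_univ, Fintype.card_fin, nsmul_eq_mul] at hc
    have e : ∏ i, mg P Z (s i) = Real.exp (∑ i, Real.log (mg P Z (s i))) := by
      rw [Real.exp_sum]
      exact prod_congr rfl fun i _ => (Real.exp_log (mg_pos hP Z _)).symm
    rw [Typ, mg_pw, e]
    constructor <;> refine Real.exp_le_exp.2 ?_ <;> linarith [hc.1, hc.2]

end Vale.Agent.P141
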